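import Mathlib.Analysis.InnerProductSpace.PiL2
import Mathlib.Geometry.Euclidean.Angle.Unoriented.Basic
import Mathlib.Combinatorics.SimpleGraph.Basic

/-! Complements of disc graphs for projective metrics of the plane and for the round sphere. -/

set_option autoImplicit false

namespace Vale.Agent.P305.R2.H791

/-- `d` is a continuous projective metric on the set `D` of the plane: straight segments are
shortest paths (the metrics of Hilbert's fourth problem). -/
structure ProjMetric (D : Set (EuclideanSpace ℝ (Fin 2)))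
    (d : EuclideanSpace ℝ (Fin 2) → EuclideanSpace ℝ (Fin 2) → ℝ) : Prop where
  self : ∀ x ∈ D, d x x = 0
  symm : ∀ x ∈ D, ∀ y ∈ D, d x y = d y x
  tri : ∀ x ∈ D, ∀ y ∈ D, ∀ z ∈ D, d x z ≤ d x y + d y z
  add : ∀ x ∈ D, ∀ y ∈ D, ∀ z ∈ segment ℝ x y, d x z + d z y = d x y
  cont : ContinuousOn (fun p : EuclideanSpace ℝ (Fin 2) × EuclideanSpace ℝ (Fin 2) => d p.1 p.2)
    (D ×ˢ D)

/-- `G` is the complement of a disc graph of a projective metric: for some open convex set `D` of
the plane and some continuous projective metric `d` on `D` there are closed `d`-discs, one for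
every vertex, of arbitrary radii `≥ 0`, such that two different vertices are adjacent in `G` iff
their discs are disjoint. -/
def IsCoProj {V : Type} (G : SimpleGraph V) : Prop :=
  ∃ (D : Set (EuclideanSpace ℝ (Fin 2)))
    (d : EuclideanSpace ℝ (Fin 2) → EuclideanSpace ℝ (Fin 2) → ℝ)
    (c : V → EuclideanSpace ℝ (Fin 2)) (r : V → ℝ),
    IsOpen D ∧ Convex ℝ D ∧ ProjMetric D d ∧ (∀ v, c v ∈ D) ∧ (∀ v, 0 ≤ r v) ∧
    ∀ u v, u ≠ v → (G.Adj u v ↔
      Disjoint {x | x ∈ D ∧ d x (c u) ≤ r u} {x | x ∈ D ∧ d x (c v) ≤ r v})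

/-- `G` is the complement of an intersection graph of caps of the two-dimensional sphere: there are
closed spherical caps, one for every vertex, of arbitrary angular radii `≥ 0` (also larger than a
hemisphere), such that two different vertices are adjacent in `G` iff their caps are disjoint. -/
def IsCoCap {V : Type} (G : SimpleGraph V) : Prop :=
  ∃ (c : V → EuclideanSpace ℝ (Fin 3)) (r : V → ℝ), (∀ v, ‖c v‖ = 1) ∧ (∀ v, 0 ≤ r v) ∧
    ∀ u v, u ≠ v → (G.Adj u v ↔
      Disjoint {x : EuclideanSpace ℝ (Fin 3) | ‖x‖ = 1 ∧ InnerProductGeometry.angle x (c u) ≤ r u}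
        {x | ‖x‖ = 1 ∧ InnerProductGeometry.angle x (c v) ≤ r v})

/-- `G` is a threshold graph of the angular distance of the sphere: points `c v` of the sphere (or
nonzero vectors of space) and real numbers `r v` (of any sign) such that two different vertices are
adjacent in `G` iff the angle between `c u` and `c v` is larger than `r u + r v`. -/
def IsCoAngle {V : Type} (G : SimpleGraph V) : Prop :=
  ∃ (c : V → EuclideanSpace ℝ (Fin 3)) (r : V → ℝ), (∀ v, c v ≠ 0) ∧
    ∀ u v, u ≠ v → (G.Adj u v ↔ r u + r v < InnerProductGeometry.angle (c u) (c v))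

end Vale.Agent.P305.R2.H791
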