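import Vale.Agent.P305.R2.H791.Far
import Vale.Agent.P305.R2.H791.Defs

/-! The two literal classes. -/

set_option autoImplicit false

namespace Vale.Agent.P305.R2.H791

open Module Vale.Agent.P305.H529 InnerProductGeometry

/-! ### The sphere -/

theorem arcs_angle : Arcs ({0}ᶜ : Set (EuclideanSpace ℝ (Fin 3))) angle where
  symm x _ y _ := angle_comm x y
  tri x _ y _ z _ := angle_le_angle_add_angle x y z
  mem _ _ _ _ _ _ _ _ h := h
  add x hx y hy p q hp hq h := by
    have hy' : q • y ≠ 0 := smul_ne_zero hq.ne' hy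
    have e := angle_eq_angle_add_add_angle_add (p • x) hy'
    rw [angle_smul_left_of_pos _ _ hp, angle_smul_left_of_pos _ _ hp,
      angle_smul_left_of_pos _ _ hq, angle_smul_right_of_pos _ _ hq] at e
    rw [e, angle_comm (p • x + q • y) y]

theorem cont_angle : ContinuousOn (fun p : EuclideanSpace ℝ (Fin 3) × EuclideanSpace ℝ (Fin 3) =>
    angle p.1 p.2) (({0}ᶜ : Set (EuclideanSpace ℝ (Fin 3))) ×ˢ {0}ᶜ) := fun p hp =>
  (continuousAt_angle hp.1 hp.2).continuousWithinAt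

theorem exists_orth (P : EuclideanSpace ℝ (Fin 3)) :
    ∃ R : EuclideanSpace ℝ (Fin 3), ‖R‖ = 1 ∧ inner ℝ R P = 0 := by
  have h1 : (Submodule.span ℝ {P})ᗮ ≠ ⊥ := by
    intro h
    have h2 := (Submodule.span ℝ {P}).finrank_add_finrank_orthogonal
    rw [h, finrank_bot, add_zero] at h2
    have h3 := finrank_span_le_card (R := ℝ) ({P} : Set (EuclideanSpace ℝ (Fin 3)))
    rw [h2, finrank_euclideanSpace_fin] at h3
    simp at h3
  obtain ⟨R, hR, hR0⟩ := Submodule.exists_mem_ne_zero_of_ne_bot h1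
  have h4 : inner ℝ R P = 0 := by
    rw [real_inner_comm]
    exact (Submodule.mem_orthogonal_singleton_iff_inner_right.1 hR)
  refine ⟨‖R‖⁻¹ • R, ?_, ?_⟩
  · rw [norm_smul, norm_inv, norm_norm, inv_mul_cancel₀ (norm_ne_zero_iff.2 hR0)]
  · rw [real_inner_smul_left, h4, mul_zero]

theorem exists_at (P : EuclideanSpace ℝ (Fin 3)) (hP : ‖P‖ = 1) {ρ : ℝ} (h0 : 0 ≤ ρ)
    (hπ : ρ ≤ Real.pi) : ∃ x : EuclideanSpace ℝ (Fin 3), ‖x‖ = 1 ∧ angle x P = ρ := by
  obtain ⟨R, hR, hRP⟩ := exists_orth P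
  have hn : ‖Real.cos ρ • P + Real.sin ρ • R‖ = 1 := by
    have h1 : ‖Real.cos ρ • P + Real.sin ρ • R‖ ^ 2 = 1 := by
      rw [norm_add_sq_real, norm_smul, norm_smul, hP, hR, real_inner_smul_left,
        real_inner_smul_right, real_inner_comm, hRP, mul_one, mul_one, Real.norm_eq_abs,
        Real.norm_eq_abs, sq_abs, sq_abs]
      have := Real.sin_sq_add_cos_sq ρ
      linarith
    have h2 : 0 ≤ ‖Real.cos ρ • P + Real.sin ρ • R‖ := norm_nonneg _
    nlinarith
  refine ⟨Real.cos ρ • P + Real.sin ρ • R, hn, ?_⟩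
  rw [angle, hn, hP, inner_add_left, real_inner_smul_left, real_inner_smul_left, hRP,
    real_inner_self_eq_norm_sq, hP]
  simp only [one_pow, mul_one, mul_zero, add_zero, div_one]
  exact Real.arccos_cos h0 hπ

theorem coAngle_of_coCap {V : Type} {G : SimpleGraph V} (hG : IsCoCap G) : IsCoAngle G := by
  obtain ⟨c, r, hc, hr, hadj⟩ := hG
  have hc0 : ∀ v, c v ≠ 0 := fun v h => by
    have := hc v
    rw [h, norm_zero] at this
    exact zero_ne_one this
  refine ⟨c, r, hc0, fun u v huv => ?_⟩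
  rw [hadj u v huv, Set.disjoint_left]
  constructor
  · intro hdis
    by_contra hle
    push Not at hle
    by_cases hne : ∀ p q : ℝ, 0 < p → 0 < q → p • c u + q • c v ≠ 0
    · obtain ⟨z, hz, h1, h2⟩ := exists_between arcs_angle cont_angle
        (fun x hx => angle_self hx) (hc0 u) (hc0 v) hne (hr u) (hr v) hle
      have hz' : 0 < ‖z‖⁻¹ := inv_pos.2 (norm_pos_iff.2 hz)
      refine hdis (a := ‖z‖⁻¹ • z) ⟨?_, ?_⟩ ⟨?_, ?_⟩
      · rw [norm_smul, norm_inv, norm_norm, inv_mul_cancel₀ (norm_ne_zero_iff.2 hz)]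
      · rw [angle_smul_left_of_pos _ _ hz']; exact h1
      · rw [norm_smul, norm_inv, norm_norm, inv_mul_cancel₀ (norm_ne_zero_iff.2 hz)]
      · rw [angle_smul_left_of_pos _ _ hz']; exact h2
    · push Not at hne
      obtain ⟨p, q, hp, hq, h⟩ := hne
      have e1 : q • c v = -(p • c u) := by rw [eq_neg_iff_add_eq_zero, add_comm]; exact h
      have e2 : q = p := by
        have := congrArg norm e1
        rwa [norm_neg, norm_smul, norm_smul, hc u, hc v, mul_one, mul_one, Real.norm_eq_abs,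
          Real.norm_eq_abs, abs_of_pos hp, abs_of_pos hq] at this
      have e3 : c v = -c u := by
        rw [e2, ← smul_neg] at e1
        exact smul_right_injective _ hp.ne' e1
      rw [e3, angle_neg_right, angle_self (hc0 u), sub_zero] at hle
      obtain ⟨x, hx, hxa⟩ := exists_at (c u) (hc u) (ρ := min (r u) Real.pi)
        (le_min (hr u) Real.pi_pos.le) (min_le_right _ _)
      refine hdis (a := x) ⟨hx, by rw [hxa]; exact min_le_left _ _⟩ ⟨hx, ?_⟩
      rw [e3, angle_neg_right, hxa]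
      rcases min_cases (r u) Real.pi with h' | h'
      · rw [h'.1]; linarith
      · rw [h'.1]; simpa using hr v
  · intro hlt x hx hx'
    have h1 := angle_le_angle_add_angle (c u) x (c v)
    rw [angle_comm (c u) x] at h1
    linarith [hx.2, hx'.2]

theorem angle_pair {V : Type} [Fintype V] (G : SimpleGraph V) (hG : IsCoAngle G) (S T : Set V)
    (hST : ∀ u ∈ S, ∀ v ∈ T, u ≠ v ∧ ¬ G.Adj u v) (hS : ¬ (G.induce S).IsBipartite)
    (hT : ¬ (G.induce T).IsBipartite) : False := by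
  obtain ⟨c, r, hc0, hadj⟩ := hG
  exact far_pair G (EuclideanSpace.basisFun (Fin 3) ℝ).toBasis isOpen_compl_singleton arcs_angle
    cont_angle c hc0 r hadj S T hST hS hT

theorem cap_pair {V : Type} [Fintype V] (G : SimpleGraph V) (hG : IsCoCap G) (S T : Set V)
    (hST : ∀ u ∈ S, ∀ v ∈ T, u ≠ v ∧ ¬ G.Adj u v) (hS : ¬ (G.induce S).IsBipartite)
    (hT : ¬ (G.induce T).IsBipartite) : False :=
  angle_pair G (coAngle_of_coCap hG) S T hST hS hT

theorem IsCoAngle.induce {V : Type} {G : SimpleGraph V} (h : IsCoAngle G) (S : Set V) :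
    IsCoAngle (G.induce S) := by
  obtain ⟨c, r, hc, hadj⟩ := h
  exact ⟨fun v => c v, fun v => r v, fun v => hc v,
    fun u v huv => hadj u v fun h => huv (Subtype.ext h)⟩

/-! ### Projective metrics -/

/-- The point of the plane represented by a vector. -/
noncomputable def pr (w : EuclideanSpace ℝ (Fin 2) × ℝ) : EuclideanSpace ℝ (Fin 2) :=
  w.2⁻¹ • w.1

/-- The cone over `D`. -/
def cone (D : Set (EuclideanSpace ℝ (Fin 2))) : Set (EuclideanSpace ℝ (Fin 2) × ℝ) :=
  {w | 0 < w.2 ∧ pr w ∈ D}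

theorem pr_emb (x : EuclideanSpace ℝ (Fin 2)) : pr (x, 1) = x := by simp [pr]

theorem cont_pr : ContinuousOn pr {w | 0 < w.2} := by
  unfold pr
  exact (continuousOn_snd.inv₀ fun w hw => ne_of_gt hw).smul continuousOn_fst

theorem isOpen_cone {D : Set (EuclideanSpace ℝ (Fin 2))} (hD : IsOpen D) : IsOpen (cone D) :=
  cont_pr.isOpen_inter_preimage (isOpen_lt continuous_const continuous_snd) hD

theorem pr_add {x y : EuclideanSpace ℝ (Fin 2) × ℝ} (hx : 0 < x.2) (hy : 0 < y.2) {p q : ℝ}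
    (hp : 0 < p) (hq : 0 < q) :
    0 < (p • x + q • y).2 ∧ pr (p • x + q • y) ∈ segment ℝ (pr x) (pr y) := by
  have h2 : (p • x + q • y).2 = p * x.2 + q * y.2 := rfl
  have h1 : (p • x + q • y).1 = p • x.1 + q • y.1 := rfl
  have hs : 0 < p * x.2 + q * y.2 := by positivity
  refine ⟨by rw [h2]; exact hs, p * x.2 / (p * x.2 + q * y.2), q * y.2 / (p * x.2 + q * y.2),
    by positivity, by positivity, by field_simp, ?_⟩
  unfold pr
  rw [h1, h2, smul_add, smul_smul, smul_smul, smul_smul, smul_smul]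
  congr 2
  · field_simp
  · field_simp

theorem arcs_cone {D : Set (EuclideanSpace ℝ (Fin 2))} (hD : Convex ℝ D)
    {d : EuclideanSpace ℝ (Fin 2) → EuclideanSpace ℝ (Fin 2) → ℝ} (hd : ProjMetric D d) :
    Arcs (cone D) fun x y => d (pr x) (pr y) where
  symm _ hx _ hy := hd.symm _ hx.2 _ hy.2
  tri _ hx _ hy _ hz := hd.tri _ hx.2 _ hy.2 _ hz.2
  mem _ hx _ hy _ _ hp hq _ := ⟨(pr_add hx.1 hy.1 hp hq).1,
    hD.segment_subset hx.2 hy.2 (pr_add hx.1 hy.1 hp hq).2⟩
  add _ hx _ hy _ _ hp hq _ := (hd.add _ hx.2 _ hy.2 _ (pr_add hx.1 hy.1 hp hq).2).le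

theorem cont_cone {D : Set (EuclideanSpace ℝ (Fin 2))}
    {d : EuclideanSpace ℝ (Fin 2) → EuclideanSpace ℝ (Fin 2) → ℝ} (hd : ProjMetric D d) :
    ContinuousOn (fun p : (EuclideanSpace ℝ (Fin 2) × ℝ) × (EuclideanSpace ℝ (Fin 2) × ℝ) =>
      d (pr p.1) (pr p.2)) (cone D ×ˢ cone D) := by
  have h1 : ContinuousOn pr (cone D) := cont_pr.mono fun w hw => hw.1
  exact hd.cont.comp ((h1.comp continuousOn_fst fun p hp => hp.1).prodMk
    (h1.comp continuousOn_snd fun p hp => hp.2)) fun p hp => ⟨hp.1.2, hp.2.2⟩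

theorem finrank_three : finrank ℝ (EuclideanSpace ℝ (Fin 2) × ℝ) = 3 := by
  rw [finrank_prod, finrank_euclideanSpace_fin, finrank_self]

theorem proj_pair {V : Type} [Fintype V] (G : SimpleGraph V) (hG : IsCoProj G) (S T : Set V)
    (hST : ∀ u ∈ S, ∀ v ∈ T, u ≠ v ∧ ¬ G.Adj u v) (hS : ¬ (G.induce S).IsBipartite)
    (hT : ¬ (G.induce T).IsBipartite) : False := by
  obtain ⟨D, d, c, r, hD, hDc, hd, hc, hr, hadj⟩ := hG
  have hcm : ∀ v, (c v, (1 : ℝ)) ∈ cone D := fun v => ⟨one_pos, by rw [pr_emb]; exact hc v⟩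
  refine far_pair G (finBasisOfFinrankEq ℝ (EuclideanSpace ℝ (Fin 2) × ℝ) finrank_three)
    (isOpen_cone hD) (arcs_cone hDc hd) (cont_cone hd) (fun v => (c v, (1 : ℝ))) hcm r
    (fun u v huv => ?_) S T hST hS hT
  rw [hadj u v huv, Set.disjoint_left]
  constructor
  · intro hdis
    by_contra hle
    push Not at hle
    have hne : ∀ p q : ℝ, 0 < p → 0 < q → p • (c u, (1 : ℝ)) + q • (c v, (1 : ℝ)) ≠ 0 := by
      intro p q hp hq h
      have := congrArg Prod.snd h
      simp only [Prod.snd_add, Prod.smul_snd, smul_eq_mul, mul_one, Prod.snd_zero] at this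
      linarith
    obtain ⟨z, hz, h1, h2⟩ := exists_between (arcs_cone hDc hd) (cont_cone hd)
      (fun x hx => hd.self _ hx.2) (hcm u) (hcm v) hne (hr u) (hr v) hle
    simp only [pr_emb] at h1 h2
    exact hdis (a := pr z) ⟨hz.2, h1⟩ ⟨hz.2, h2⟩
  · intro hlt x hx hx'
    simp only [pr_emb] at hlt
    have h1 := hd.tri (c u) (hc u) x hx.1 (c v) (hc v)
    rw [hd.symm (c u) (hc u) x hx.1] at h1
    linarith [hx.2, hx'.2]

end Vale.Agent.P305.R2.H791
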