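import Vale.Agent.P305.R2.H791.Lin
import Vale.Agent.P305.H529.Pair
import Mathlib.Geometry.Euclidean.Angle.Unoriented.TriangleInequality

/-! Threshold graphs of the distances of projective metrics and of the sphere have no two odd
closed walks without contacts. -/

set_option autoImplicit false

namespace Vale.Agent.P305.R2.H791

open Module Vale.Agent.P305.H529 Filter Topology

section gp

variable {W : Type} [NormedAddCommGroup W] [NormedSpace ℝ W]

theorem isOpen_gp3 [FiniteDimensional ℝ W] {ι : Type} (f g h : W →ₗ[ℝ] ℝ) (i j k : ι) :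
    IsOpen {P : ι → W | dt f g h (P i) (P j) (P k) ≠ 0} := by
  have hf : Continuous f := f.continuous_of_finiteDimensional
  have hg : Continuous g := g.continuous_of_finiteDimensional
  have hh : Continuous h := h.continuous_of_finiteDimensional
  refine isOpen_ne_fun ?_ continuous_const
  unfold dt
  fun_prop

theorem dense_gp3 {ι : Type} [Fintype ι] (b : Basis (Fin 3) ℝ W) (i j k : ι) (hij : i ≠ j)
    (hjk : j ≠ k) (hik : i ≠ k) :
    Dense {P : ι → W | dt (b.coord 0) (b.coord 1) (b.coord 2) (P i) (P j) (P k) ≠ 0} := by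
  classical
  rw [Metric.dense_iff]
  intro P ε hε
  obtain ⟨f, hf⟩ : ∃ f, f = b.coord 0 := ⟨_, rfl⟩
  obtain ⟨g, hg⟩ : ∃ g, g = b.coord 1 := ⟨_, rfl⟩
  obtain ⟨h, hh⟩ : ∃ h, h = b.coord 2 := ⟨_, rfl⟩
  have f0 : f (b 0) = 1 := by simp [hf]
  have f1 : f (b 1) = 0 := by simp [hf]
  have f2 : f (b 2) = 0 := by simp [hf]
  have g0 : g (b 0) = 0 := by simp [hg]
  have g1 : g (b 1) = 1 := by simp [hg]
  have g2 : g (b 2) = 0 := by simp [hg]
  have h0 : h (b 0) = 0 := by simp [hh]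
  have h1 : h (b 1) = 0 := by simp [hh]
  have h2 : h (b 2) = 1 := by simp [hh]
  rw [← hf, ← hg, ← hh]
  let Q : ℝ → ι → W := fun τ l => P l + if l = i then τ • b 0 else if l = j then τ • b 1 else
    if l = k then τ • b 2 else 0
  have hQ : ∀ τ, dt f g h (Q τ i) (Q τ j) (Q τ k) =
      τ ^ 3 + (f (P i) + g (P j) + h (P k)) * τ ^ 2 +
      (f (P i) * g (P j) - g (P i) * f (P j) + f (P i) * h (P k) - h (P i) * f (P k) +
        g (P j) * h (P k) - h (P j) * g (P k)) * τ + dt f g h (P i) (P j) (P k) := by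
    intro τ
    simp only [Q, if_neg hij.symm, if_neg hik.symm, if_neg hjk.symm, if_true, dt, map_add,
      map_smul, smul_eq_mul, f0, f1, f2, g0, g1, g2, h0, h1, h2]
    ring
  set N := ‖b 0‖ + ‖b 1‖ + ‖b 2‖ with hN
  have n0 := norm_nonneg (b 0)
  have n1 := norm_nonneg (b 1)
  have n2 := norm_nonneg (b 2)
  have hN0 : 0 ≤ N := by positivity
  have hD : ∀ τ, |τ| * N < ε → Q τ ∈ Metric.ball P ε := by
    intro τ hτ
    rw [Metric.mem_ball, dist_pi_lt_iff hε]
    intro l
    rw [dist_eq_norm]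
    simp only [Q, add_sub_cancel_left]
    have e0 := mul_nonneg (abs_nonneg τ) n0
    have e1 := mul_nonneg (abs_nonneg τ) n1
    have e2 := mul_nonneg (abs_nonneg τ) n2
    have eN : |τ| * N = |τ| * ‖b 0‖ + |τ| * ‖b 1‖ + |τ| * ‖b 2‖ := by rw [hN]; ring
    split_ifs
    · rw [norm_smul, Real.norm_eq_abs]; linarith
    · rw [norm_smul, Real.norm_eq_abs]; linarith
    · rw [norm_smul, Real.norm_eq_abs]; linarith
    · simpa using hε
  set τ := ε / (N + 1) with hτ
  have hτ0 : 0 < τ := by positivity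
  have hτN : τ * N < ε := by
    rw [hτ, div_mul_eq_mul_div, div_lt_iff₀ (by positivity)]
    nlinarith
  have sm : ∀ c : ℝ, 0 < c → c ≤ 1 → |c * τ| * N < ε := by
    intro c hc hc1
    rw [abs_of_pos (by positivity)]
    have : c * τ ≤ τ := by nlinarith
    nlinarith
  by_contra hcon
  have all : ∀ c : ℝ, 0 < c → c ≤ 1 → dt f g h (Q (c * τ) i) (Q (c * τ) j) (Q (c * τ) k) = 0 := by
    intro c hc hc1
    by_contra hne
    exact hcon ⟨Q (c * τ), hD _ (sm c hc hc1), hne⟩
  have a1 := all 1 one_pos le_rfl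
  have a2 := all (1 / 2) (by norm_num) (by norm_num)
  have a3 := all (1 / 3) (by norm_num) (by norm_num)
  have a4 := all (1 / 4) (by norm_num) (by norm_num)
  rw [hQ] at a1 a2 a3 a4
  have : τ ^ 3 = 0 := by linear_combination 4 * a1 - 48 * a2 + 108 * a3 - 64 * a4
  have : 0 < τ ^ 3 := by positivity
  linarith

theorem exists_gp3 {ι : Type} [Fintype ι] (b : Basis (Fin 3) ℝ W) (c : ι → W) (U : Set (ι → W))
    (hU : IsOpen U) (hc : c ∈ U) :
    ∃ P ∈ U, ∀ i j k, i ≠ j → j ≠ k → i ≠ k →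
      dt (b.coord 0) (b.coord 1) (b.coord 2) (P i) (P j) (P k) ≠ 0 := by
  classical
  have : FiniteDimensional ℝ W := b.finiteDimensional_of_finite
  have : CompleteSpace W := FiniteDimensional.complete ℝ W
  have hd : Dense (⋂ t : {t : ι × ι × ι // t.1 ≠ t.2.1 ∧ t.2.1 ≠ t.2.2 ∧ t.1 ≠ t.2.2},
      {P : ι → W | dt (b.coord 0) (b.coord 1) (b.coord 2) (P t.1.1) (P t.1.2.1)
        (P t.1.2.2) ≠ 0}) := by
    refine dense_iInter_of_isOpen (fun t => isOpen_gp3 _ _ _ _ _ _) (fun t => ?_)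
    exact dense_gp3 b _ _ _ t.2.1 t.2.2.1 t.2.2.2
  obtain ⟨P, hP, hPU⟩ := hd.inter_open_nonempty U hU ⟨c, hc⟩
  refine ⟨P, hP, fun i j k hij hjk hik => ?_⟩
  rw [Set.mem_iInter] at hPU
  exact hPU ⟨(i, j, k), hij, hjk, hik⟩

/-- The main theorem on threshold graphs of distances which are additive along arcs. -/
theorem far_pair {V : Type} [Fintype V] (G : SimpleGraph V) (B : Basis (Fin 3) ℝ W) {Ω : Set W}
    (hΩ : IsOpen Ω) {d : W → W → ℝ} (hd : Arcs Ω d)
    (hcont : ContinuousOn (fun p : W × W => d p.1 p.2) (Ω ×ˢ Ω)) (c : V → W)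
    (hcΩ : ∀ v, c v ∈ Ω) (r : V → ℝ)
    (hadj : ∀ u v, u ≠ v → (G.Adj u v ↔ r u + r v < d (c u) (c v))) (S T : Set V)
    (hST : ∀ u ∈ S, ∀ v ∈ T, u ≠ v ∧ ¬ G.Adj u v) (hS : ¬ (G.induce S).IsBipartite)
    (hT : ¬ (G.induce T).IsBipartite) : False := by
  obtain ⟨s, a, hs, has, haS, haadj⟩ := exists_odd_walk G S hS
  obtain ⟨t, b, ht, hbt, hbT, hbadj⟩ := exists_odd_walk G T hT
  have : FiniteDimensional ℝ W := B.finiteDimensional_of_finite
  have far : ∀ u v, G.Adj u v → r u + r v < d (c u) (c v) := fun u v h => (hadj u v h.ne).1 h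
  have near : ∀ u v, u ≠ v → ¬ G.Adj u v → d (c u) (c v) ≤ r u + r v := fun u v huv h =>
    not_lt.1 fun h' => h ((hadj u v huv).2 h')
  let c' : Option V → W := fun o => o.elim 0 c
  let U : Set (Option V → W) := {P | (∀ v : V, P (some v) ∈ Ω) ∧
    ∀ u u' v v' : V, G.Adj u u' → G.Adj v v' →
    (u ≠ v ∧ ¬ G.Adj u v) → (u' ≠ v' ∧ ¬ G.Adj u' v') →
    d (P (some u)) (P (some v)) + d (P (some u')) (P (some v')) <
      d (P (some u)) (P (some u')) + d (P (some v)) (P (some v'))}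
  have hdc : ∀ u v : V, ContinuousAt (fun P : Option V → W => d (P (some u)) (P (some v))) c' := by
    intro u v
    have h1 : ContinuousAt (fun p : W × W => d p.1 p.2) (c' (some u), c' (some v)) :=
      hcont.continuousAt ((hΩ.prod hΩ).mem_nhds ⟨hcΩ u, hcΩ v⟩)
    exact h1.comp (f := fun P : Option V → W => (P (some u), P (some v)))
      (by fun_prop)
  have hU : c' ∈ interior U := by
    rw [mem_interior_iff_mem_nhds]
    refine Filter.inter_mem ?_ ?_
    · show ∀ᶠ P : Option V → W in 𝓝 c', ∀ v : V, P (some v) ∈ Ω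
      rw [eventually_all]
      intro v
      have h1 : ContinuousAt (fun P : Option V → W => P (some v)) c' :=
        (continuous_apply (some v)).continuousAt
      exact h1.eventually (hΩ.mem_nhds (hcΩ v))
    · show ∀ᶠ P : Option V → W in 𝓝 c', ∀ u u' v v' : V, G.Adj u u' → G.Adj v v' →
        (u ≠ v ∧ ¬ G.Adj u v) → (u' ≠ v' ∧ ¬ G.Adj u' v') →
        d (P (some u)) (P (some v)) + d (P (some u')) (P (some v')) <
          d (P (some u)) (P (some u')) + d (P (some v)) (P (some v'))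
      simp only [eventually_all]
      intro u u' v v' h1 h2 h3 h4
      have e1 := far u u' h1
      have e2 := far v v' h2
      have e3 := near u v h3.1 h3.2
      have e4 := near u' v' h4.1 h4.2
      refine Filter.Tendsto.eventually_lt ((hdc u v).add (hdc u' v')).tendsto
        ((hdc u u').add (hdc v v')).tendsto ?_
      show d (c u) (c v) + d (c u') (c v') < d (c u) (c u') + d (c v) (c v')
      linarith
  obtain ⟨P, hPU, hP⟩ := exists_gp3 B c' (interior U) isOpen_interior hU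
  have hPU' : P ∈ U := interior_subset hPU
  refine not_odd (B.coord 0) (B.coord 1) (B.coord 2) P hP (fun i => some (a i))
    (fun j => some (b j))
    (by simp only [has]) (by simp only [hbt]) none (fun i => by simp) (fun i => by simp)
    (fun i hi => by simpa using (haadj i hi).ne) (fun j hj => by simpa using (hbadj j hj).ne)
    (fun i j => by simpa using (hST _ (haS i) _ (hbT j)).1) ?_ ⟨hs, ht⟩
  intro i j hi hj hsep
  have hfg : ∀ x, B.coord 0 x = 0 → B.coord 1 x = 0 → B.coord 2 x = 0 → x = 0 := by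
    intro x h0 h1 h2
    refine B.forall_coord_eq_zero_iff.1 fun k => ?_
    fin_cases k
    · exact h0
    · exact h1
    · exact h2
  have ha1 := haadj i hi
  have hb1 := hbadj j hj
  have n1 := hST _ (haS i) _ (hbT j)
  have n2 := hST _ (haS (i + 1)) _ (hbT j)
  have n3 := hST _ (haS i) _ (hbT (j + 1))
  have n4 := hST _ (haS (i + 1)) _ (hbT (j + 1))
  have so : ∀ {x y : V}, x ≠ y → (some x : Option V) ≠ some y := fun h => by simpa using h
  have q := quad (B.coord 0) (B.coord 1) (B.coord 2) hfg hd (hPU'.1 (a i)) (hPU'.1 (a (i + 1)))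
    (hPU'.1 (b j)) (hPU'.1 (b (j + 1)))
    (hP _ _ _ (so ha1.ne) (so n2.1) (so n1.1)) (hP _ _ _ (so ha1.ne) (so n4.1) (so n3.1))
    (hP _ _ _ (so hb1.ne) (so n3.1.symm) (so n1.1.symm))
    (hP _ _ _ (so hb1.ne) (so n4.1.symm) (so n2.1.symm)) hsep.1 hsep.2
  have u1 := hPU'.2 (a i) (a (i + 1)) (b j) (b (j + 1)) ha1 hb1 n1 n4
  have u2 := hPU'.2 (a i) (a (i + 1)) (b (j + 1)) (b j) ha1 hb1.symm n3 n2
  rw [hd.symm _ (hPU'.1 (b (j + 1))) _ (hPU'.1 (b j))] at u2
  rcases q with q | q <;> linarith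

/-- Points at prescribed distance on an arc. -/
theorem exists_between {Ω : Set W} {d : W → W → ℝ} (hd : Arcs Ω d)
    (hcont : ContinuousOn (fun p : W × W => d p.1 p.2) (Ω ×ˢ Ω)) (h0 : ∀ x ∈ Ω, d x x = 0)
    {x y : W} (hx : x ∈ Ω) (hy : y ∈ Ω)
    (hne : ∀ p q : ℝ, 0 < p → 0 < q → p • x + q • y ≠ 0) {ρ σ : ℝ} (hρ : 0 ≤ ρ) (hσ : 0 ≤ σ)
    (hxy : d x y ≤ ρ + σ) : ∃ z ∈ Ω, d z x ≤ ρ ∧ d z y ≤ σ := by
  rcases le_or_gt (d y x) ρ with h1 | h1
  · exact ⟨y, hy, h1, by rw [h0 y hy]; exact hσ⟩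
  have hmem : ∀ t ∈ Set.Icc (0 : ℝ) 1, (1 - t) • x + t • y ∈ Ω := by
    intro t ht
    rcases eq_or_lt_of_le ht.1 with h | h
    · rw [← h]; simpa using hx
    rcases eq_or_lt_of_le ht.2 with h' | h'
    · rw [h']; simpa using hy
    exact hd.mem x hx y hy _ _ (by linarith) h (hne _ _ (by linarith) h)
  have hφ : ContinuousOn (fun t : ℝ => d ((1 - t) • x + t • y) x) (Set.Icc 0 1) := by
    have h2 : ContinuousOn (fun t : ℝ => ((1 - t) • x + t • y, x)) (Set.Icc 0 1) := by
      fun_prop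
    exact hcont.comp h2 fun t ht => ⟨hmem t ht, hx⟩
  have h2 := intermediate_value_Icc (zero_le_one (α := ℝ)) hφ
  have h3 : ρ ∈ Set.Icc (d ((1 - (0 : ℝ)) • x + (0 : ℝ) • y) x)
      (d ((1 - (1 : ℝ)) • x + (1 : ℝ) • y) x) := by
    constructor
    · simp only [sub_zero, one_smul, zero_smul, add_zero]
      rw [h0 x hx]; exact hρ
    · simp only [sub_self, zero_smul, one_smul, zero_add]
      exact h1.le
  obtain ⟨t, ht, h4⟩ := h2 h3
  simp only at h4
  refine ⟨(1 - t) • x + t • y, hmem t ht, h4.le, ?_⟩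
  rcases eq_or_lt_of_le ht.1 with h | h
  · rw [← h] at h4 ⊢
    simp only [sub_zero, one_smul, zero_smul, add_zero] at h4 ⊢
    rw [h0 x hx] at h4
    linarith
  rcases eq_or_lt_of_le ht.2 with h' | h'
  · rw [h']
    simp only [sub_self, zero_smul, one_smul, zero_add]
    rw [h0 y hy]; exact hσ
  have h5 := hd.add x hx y hy (1 - t) t (by linarith) h (hne _ _ (by linarith) h)
  rw [hd.symm x hx _ (hmem t ht), h4] at h5
  linarith

end gp

end Vale.Agent.P305.R2.H791
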