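import Vale.Agent.P305.R2.H791.Cls
import Vale.Agent.P305.H529.Ball.Final
import Mathlib.Analysis.Normed.Affine.Convex

/-! Consequences for the matching algorithms. -/

set_option autoImplicit false

namespace Vale.Agent.P305.R2.H791

open Vale.Agent.P305 Vale.Agent.P305.H529 Vale.Agent.P305.H287 Module

theorem in_proj {n : ℕ} (G : SimpleGraph (Fin n)) (U : Set (Fin n))
    (hU : IsCoProj (G.induce U)) : oddPackingIn G U ≤ 1 := by
  have : Fintype U := Fintype.ofFinite _
  exact in_le_one G U fun S T => proj_pair (G.induce U) hU S T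

theorem in_angle {n : ℕ} (G : SimpleGraph (Fin n)) (U : Set (Fin n))
    (hU : IsCoAngle (G.induce U)) : oddPackingIn G U ≤ 1 := by
  have : Fintype U := Fintype.ofFinite _
  exact in_le_one G U fun S T => angle_pair (G.induce U) hU S T

theorem in_cap {n : ℕ} (G : SimpleGraph (Fin n)) (U : Set (Fin n))
    (hU : IsCoCap (G.induce U)) : oddPackingIn G U ≤ 1 := by
  have : Fintype U := Fintype.ofFinite _
  exact in_le_one G U fun S T => cap_pair (G.induce U) hU S T

theorem in_round {n : ℕ} (G : SimpleGraph (Fin n)) (U : Set (Fin n))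
    (hU : IsCoProj (G.induce U) ∨ IsCoCap (G.induce U)) : oddPackingIn G U ≤ 1 :=
  hU.elim (in_proj G U) (in_cap G U)

theorem searches_round {n : ℕ} (G : SimpleGraph (Fin n)) (X : Set (Fin n))
    (h : ∀ K : G.ConnectedComponent,
      IsCoProj (G.induce (K.supp \ X)) ∨ IsCoCap (G.induce (K.supp \ X))) :
    searches G ≤ inducedMatchingAt G X :=
  searches_le_im G X fun K => in_round G _ (h K)

theorem round_reduction (T : ℕ → ℕ → ℕ)
    (hT : ∀ n n' m m', n ≤ n' → m ≤ m' → T n m ≤ T n' m')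
    (hP : ∃ P, Solves P (fun _ G => G.IsBipartite) (fun n G => T n G.edgeSet.ncard)) :
    ∃ P C, ∀ κ : ℕ, Solves P (fun n G => ∃ X : Set (Fin n), inducedMatchingAt G X ≤ κ ∧
        ∀ K : G.ConnectedComponent,
          IsCoProj (G.induce (K.supp \ X)) ∨ IsCoCap (G.induce (K.supp \ X)))
      (fun n G => C * (T (2 * n) (2 * G.edgeSet.ncard) +
        (κ + 1) * ((Nat.log 2 n + 1) * (n + G.edgeSet.ncard + 1)))) := by
  obtain ⟨P, C, h⟩ := comp_reduction T hT hP
  refine ⟨P, C, fun κ => h.mono (fun _ _ _ => trivial) ?_⟩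
  rintro n G ⟨X, hX, hK⟩
  have h1 : searches G ≤ κ := (searches_round G X hK).trans hX
  exact Nat.mul_le_mul_left _ (Nat.add_le_add_left (Nat.mul_le_mul_right _ (by omega)) _)

theorem round_one (T : ℕ → ℕ → ℕ)
    (hT : ∀ n n' m m', n ≤ n' → m ≤ m' → T n m ≤ T n' m')
    (hP : ∃ P, Solves P (fun _ G => G.IsBipartite) (fun n G => T n G.edgeSet.ncard)) :
    ∃ P C, Solves P (fun _ G => ∀ K : G.ConnectedComponent,
        IsCoProj (G.induce K.supp) ∨ IsCoCap (G.induce K.supp))
      (fun n G => C * (T (2 * n) (2 * G.edgeSet.ncard) +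
        (Nat.log 2 n + 1) * (n + G.edgeSet.ncard + 1))) := by
  obtain ⟨P, C, h⟩ := one_reduction T hT hP
  exact ⟨P, C, h.mono (fun _ G hG K => in_round G _ (hG K)) fun _ _ _ => le_rfl⟩

theorem round_almostLinear (hB : AlmostLinear fun _ G => G.IsBipartite) (κ : ℕ → ℕ)
    (hκ : ∀ ε : ℝ, 0 < ε → ∃ c : ℝ, ∀ N : ℕ, (κ N : ℝ) ≤ c * ((N : ℝ) + 1) ^ ε) :
    AlmostLinear fun n G => ∃ X : Set (Fin n), inducedMatchingAt G X ≤ κ (n + G.edgeSet.ncard) ∧
      ∀ K : G.ConnectedComponent,
        IsCoProj (G.induce (K.supp \ X)) ∨ IsCoCap (G.induce (K.supp \ X)) := by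
  obtain ⟨P, T, hP, hT⟩ := comp_near_almostLinear hB κ hκ
  refine ⟨P, T, hP.mono ?_ fun _ _ _ => le_rfl, hT⟩
  rintro n G ⟨X, hX, h⟩
  exact ⟨X, hX, fun K => in_round G _ (h K)⟩

/-- The disk graphs of norms belong to the class of projective metrics. -/
theorem proj_of_codisk {V : Type} (G : SimpleGraph V) (hG : IsCoDisk G) : IsCoProj G := by
  obtain ⟨E, _, _, c, r, hE, hr, hadj⟩ := hG
  have : FiniteDimensional ℝ E := FiniteDimensional.of_finrank_eq_succ (n := 1) hE
  let e : EuclideanSpace ℝ (Fin 2) ≃ₗ[ℝ] E :=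
    LinearEquiv.ofFinrankEq _ _ (by rw [finrank_euclideanSpace_fin, hE])
  have he : Continuous e := e.toLinearMap.continuous_of_finiteDimensional
  refine ⟨Set.univ, fun x y => dist (e x) (e y), fun v => e.symm (c v), r, isOpen_univ,
    convex_univ, ⟨fun x _ => dist_self _, fun x _ y _ => dist_comm _ _,
    fun x _ y _ z _ => dist_triangle _ _ _, ?_, ?_⟩, fun v => Set.mem_univ _, hr, ?_⟩
  · rintro x _ y _ z ⟨a, b, ha, hb, hab, rfl⟩
    refine dist_add_dist_of_mem_segment ⟨a, b, ha, hb, hab, ?_⟩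
    rw [map_add, map_smul, map_smul]
  · exact (Continuous.dist (he.comp continuous_fst) (he.comp continuous_snd)).continuousOn
  · intro u v huv
    rw [hadj u v huv, Set.disjoint_left, Set.disjoint_left]
    simp only [LinearEquiv.apply_symm_apply]
    constructor
    · intro h x hx hx'
      exact h (Metric.mem_closedBall.2 hx.2) (Metric.mem_closedBall.2 hx'.2)
    · intro h x hx hx'
      refine h (a := e.symm x) ⟨Set.mem_univ _, ?_⟩ ⟨Set.mem_univ _, ?_⟩
      · rw [LinearEquiv.apply_symm_apply]; exact Metric.mem_closedBall.1 hx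
      · rw [LinearEquiv.apply_symm_apply]; exact Metric.mem_closedBall.1 hx'

end Vale.Agent.P305.R2.H791
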