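import Vale.Agent.P305.H529.Geo

/-! Closed walks of vectors of a three-dimensional space in general position: parity of crossings
of great circles. Linear version of `Vale.Agent.P305.H529.Geo`. -/

set_option autoImplicit false

namespace Vale.Agent.P305.R2.H791

open Finset Vale.Agent.P305.H529

/-- The purely Boolean core, without an affine hypothesis. -/
theorem bool_core' : ∀ D X1 X2 X3 Y1 Y2 Y3 Z1 Z2 Z3 : Bool,
    (((X2 == Z1) == (X3 == Z2)) && ((X3 == Z2) == (X1 == Z3))) = false →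
    (((Y2 == Z1) == (Y3 == Z2)) && ((Y3 == Z2) == (Y1 == Z3))) = false →
    (((Z1 == D) == (X1 == Y3)) && ((X1 == Y3) == !(X3 == Y1))) = false →
    (((Z2 == D) == (X2 == Y1)) && ((X2 == Y1) == !(X1 == Y2))) = false →
    (((Z3 == D) == (X3 == Y2)) && ((X3 == Y2) == !(X2 == Y3))) = false →
    xor (xor ((X1 != Y1) && (Z1 != Z2)) ((X2 != Y2) && (Z2 != Z3))) ((X3 != Y3) && (Z3 != Z1)) =
      xor (X1 == X2 && X2 == X3) (Y1 == Y2 && Y2 == Y3) := by
  decide

variable {W : Type} [AddCommGroup W] [Module ℝ W]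

/-- The determinant of three vectors, in the coordinates `f`, `g`, `h`. -/
def dt (f g h : W →ₗ[ℝ] ℝ) (p q x : W) : ℝ :=
  f p * (g q * h x - h q * g x) - g p * (f q * h x - h q * f x) + h p * (f q * g x - g q * f x)

theorem dt_swap (f g h : W →ₗ[ℝ] ℝ) (p q x : W) : dt f g h q p x = -dt f g h p q x := by
  simp only [dt]; ring

theorem dt_cyc (f g h : W →ₗ[ℝ] ℝ) (p q x : W) : dt f g h q x p = dt f g h p q x := by
  simp only [dt]; ring

/-- The bit of an orientation. -/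
noncomputable def sd (f g h : W →ₗ[ℝ] ℝ) (p q x : W) : Bool := pos (dt f g h p q x)

theorem sd_swap (f g h : W →ₗ[ℝ] ℝ) {p q x : W} (hh : dt f g h p q x ≠ 0) :
    sd f g h q p x = !sd f g h p q x := by
  rw [sd, sd, dt_swap, pos_neg hh]

/-- Do the great circle `p q` and the great circle `x y` separate `x`, `y` and `p`, `q`? -/
noncomputable def cr (f g h : W →ₗ[ℝ] ℝ) (x y p q : W) : Bool :=
  (sd f g h p q x != sd f g h p q y) && (sd f g h x y p != sd f g h x y q)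

/-- Is `x` inside the double triangle `± p q r`? -/
noncomputable def ind (f g h : W →ₗ[ℝ] ℝ) (p q r x : W) : Bool :=
  (sd f g h p q x == sd f g h q r x) && (sd f g h q r x == sd f g h r p x)

theorem cr_swap (f g h : W →ₗ[ℝ] ℝ) {x y p q : W} (h1 : dt f g h p q x ≠ 0)
    (h2 : dt f g h p q y ≠ 0) : cr f g h x y q p = cr f g h x y p q := by
  simp only [cr, sd_swap f g h h1, sd_swap f g h h2]
  cases sd f g h p q x <;> cases sd f g h p q y <;> cases sd f g h x y p <;>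
    cases sd f g h x y q <;> rfl

theorem triangle (f g h : W →ₗ[ℝ] ℝ) (x y p q r : W) (hD : dt f g h p q r ≠ 0)
    (hX1 : dt f g h p q x ≠ 0) (hX2 : dt f g h q r x ≠ 0) (hX3 : dt f g h r p x ≠ 0)
    (hY1 : dt f g h p q y ≠ 0) (hY2 : dt f g h q r y ≠ 0) (hY3 : dt f g h r p y ≠ 0)
    (hZ1 : dt f g h x y p ≠ 0) (hZ2 : dt f g h x y q ≠ 0) (hZ3 : dt f g h x y r ≠ 0) :
    xor (xor (cr f g h x y p q) (cr f g h x y q r)) (cr f g h x y r p) =
      xor (ind f g h p q r x) (ind f g h p q r y) := by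
  refine bool_core' (sd f g h p q r) (sd f g h p q x) (sd f g h q r x) (sd f g h r p x)
    (sd f g h p q y) (sd f g h q r y) (sd f g h r p y) (sd f g h x y p) (sd f g h x y q)
    (sd f g h x y r) ?_ ?_ ?_ ?_ ?_
  · have := three (x := dt f g h q r x * dt f g h x y p) (y := dt f g h r p x * dt f g h x y q)
      (z := dt f g h p q x * dt f g h x y r) (mul_ne_zero hX2 hZ1) (mul_ne_zero hX3 hZ2)
      (mul_ne_zero hX1 hZ3) (by simp only [dt]; ring)
    rwa [pos_mul hX2 hZ1, pos_mul hX3 hZ2, pos_mul hX1 hZ3] at this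
  · have := three (x := dt f g h q r y * dt f g h x y p) (y := dt f g h r p y * dt f g h x y q)
      (z := dt f g h p q y * dt f g h x y r) (mul_ne_zero hY2 hZ1) (mul_ne_zero hY3 hZ2)
      (mul_ne_zero hY1 hZ3) (by simp only [dt]; ring)
    rwa [pos_mul hY2 hZ1, pos_mul hY3 hZ2, pos_mul hY1 hZ3] at this
  · have := three (x := dt f g h x y p * dt f g h p q r) (y := dt f g h p q x * dt f g h r p y)
      (z := -(dt f g h r p x * dt f g h p q y)) (mul_ne_zero hZ1 hD) (mul_ne_zero hX1 hY3)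
      (neg_ne_zero.2 (mul_ne_zero hX3 hY1)) (by simp only [dt]; ring)
    rwa [pos_mul hZ1 hD, pos_mul hX1 hY3, pos_neg (mul_ne_zero hX3 hY1), pos_mul hX3 hY1] at this
  · have := three (x := dt f g h x y q * dt f g h p q r) (y := dt f g h q r x * dt f g h p q y)
      (z := -(dt f g h p q x * dt f g h q r y)) (mul_ne_zero hZ2 hD) (mul_ne_zero hX2 hY1)
      (neg_ne_zero.2 (mul_ne_zero hX1 hY2)) (by simp only [dt]; ring)
    rwa [pos_mul hZ2 hD, pos_mul hX2 hY1, pos_neg (mul_ne_zero hX1 hY2), pos_mul hX1 hY2] at this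
  · have := three (x := dt f g h x y r * dt f g h p q r) (y := dt f g h r p x * dt f g h q r y)
      (z := -(dt f g h q r x * dt f g h r p y)) (mul_ne_zero hZ3 hD) (mul_ne_zero hX3 hY2)
      (neg_ne_zero.2 (mul_ne_zero hX2 hY3)) (by simp only [dt]; ring)
    rwa [pos_mul hZ3 hD, pos_mul hX3 hY2, pos_neg (mul_ne_zero hX2 hY3), pos_mul hX2 hY3] at this

section walks

variable {ι : Type} (f g h : W →ₗ[ℝ] ℝ) (P : ι → W)
  (gp : ∀ i j k, i ≠ j → j ≠ k → i ≠ k → dt f g h (P i) (P j) (P k) ≠ 0)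

include gp

theorem walk_seg {s : ℕ} (a : ℕ → ι) (has : a s = a 0) (z u v : ι) (hz : ∀ i, a i ≠ z)
    (hza : ∀ i, i < s → a i ≠ a (i + 1)) (huz : u ≠ z) (hvz : v ≠ z) (huv : u ≠ v)
    (hu : ∀ i, a i ≠ u) (hv : ∀ i, a i ≠ v) :
    ∑ i ∈ range s, bt (cr f g h (P u) (P v) (P (a i)) (P (a (i + 1)))) =
      ∑ i ∈ range s, bt (ind f g h (P z) (P (a i)) (P (a (i + 1))) (P u)) +
      ∑ i ∈ range s, bt (ind f g h (P z) (P (a i)) (P (a (i + 1))) (P v)) := by
  have key : ∀ i ∈ range s, bt (cr f g h (P u) (P v) (P (a i)) (P (a (i + 1)))) =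
      (bt (ind f g h (P z) (P (a i)) (P (a (i + 1))) (P u)) +
        bt (ind f g h (P z) (P (a i)) (P (a (i + 1))) (P v))) +
      (bt (cr f g h (P u) (P v) (P z) (P (a i))) +
        bt (cr f g h (P u) (P v) (P z) (P (a (i + 1))))) := by
    intro i hi
    rw [mem_range] at hi
    have h1 := hza i hi
    have h0 := triangle f g h (P u) (P v) (P z) (P (a i)) (P (a (i + 1)))
      (gp _ _ _ (hz i).symm h1 (hz _).symm)
      (gp _ _ _ (hz i).symm (hu i) huz.symm) (gp _ _ _ h1 (hu _) (hu _))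
      (gp _ _ _ (hz _) huz.symm (hu _))
      (gp _ _ _ (hz i).symm (hv i) hvz.symm) (gp _ _ _ h1 (hv _) (hv _))
      (gp _ _ _ (hz _) hvz.symm (hv _))
      (gp _ _ _ huv hvz huz) (gp _ _ _ huv (hv _).symm (hu _).symm)
      (gp _ _ _ huv (hv _).symm (hu _).symm)
    have h2 := congrArg bt h0
    rw [bt_xor, bt_xor, bt_xor, cr_swap f g h (x := P u) (y := P v) (p := P z)
      (q := P (a (i + 1))) (gp _ _ _ (hz _).symm (hu _) huz.symm)
      (gp _ _ _ (hz _).symm (hv _) hvz.symm)] at h2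
    rw [← h2]
    have e1 := two_zero (bt (cr f g h (P u) (P v) (P z) (P (a i))))
    have e2 := two_zero (bt (cr f g h (P u) (P v) (P z) (P (a (i + 1)))))
    linear_combination -e1 - e2
  rw [sum_congr rfl key, sum_add_distrib, sum_add_distrib,
    tele_closed (fun i => bt (cr f g h (P u) (P v) (P z) (P (a i)))) s (by simp only [has]),
    add_zero]

/-- Two closed walks of vectors in general position, every edge of the first one being related to
every edge of the second one by a separation, cannot both have odd length. -/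
theorem not_odd {s t : ℕ} (a b : ℕ → ι) (has : a s = a 0) (hbt : b t = b 0) (z : ι)
    (hza : ∀ i, a i ≠ z) (hzb : ∀ i, b i ≠ z) (ha : ∀ i, i < s → a i ≠ a (i + 1))
    (hb : ∀ j, j < t → b j ≠ b (j + 1)) (hab : ∀ i j, a i ≠ b j)
    (sep : ∀ i j, i < s → j < t →
      ¬ (sd f g h (P (a i)) (P (a (i + 1))) (P (b j)) =
          sd f g h (P (a i)) (P (a (i + 1))) (P (b (j + 1))) ∧
        sd f g h (P (b j)) (P (b (j + 1))) (P (a i)) =
          sd f g h (P (b j)) (P (b (j + 1))) (P (a (i + 1))))) :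
    ¬ (Odd s ∧ Odd t) := by
  rintro ⟨hs, ht⟩
  set α : ℕ → ℕ → ZMod 2 := fun i j => bt (sd f g h (P (a i)) (P (a (i + 1))) (P (b j))) +
    bt (sd f g h (P (a i)) (P (a (i + 1))) (P (b (j + 1)))) with hα
  set β : ℕ → ℕ → ZMod 2 := fun i j => bt (sd f g h (P (b j)) (P (b (j + 1))) (P (a i))) +
    bt (sd f g h (P (b j)) (P (b (j + 1))) (P (a (i + 1)))) with hβ
  have h1 : ∀ i ∈ range s, ∀ j ∈ range t, (1 : ZMod 2) = α i j + β i j + α i j * β i j := by
    intro i hi j hj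
    rw [mem_range] at hi hj
    have := sep i j hi hj
    simp only [hα, hβ]
    revert this
    generalize sd f g h (P (a i)) (P (a (i + 1))) (P (b j)) = x1
    generalize sd f g h (P (a i)) (P (a (i + 1))) (P (b (j + 1))) = x2
    generalize sd f g h (P (b j)) (P (b (j + 1))) (P (a i)) = x3
    generalize sd f g h (P (b j)) (P (b (j + 1))) (P (a (i + 1))) = x4
    revert x1 x2 x3 x4
    decide
  have h2 : ∑ i ∈ range s, ∑ j ∈ range t, (1 : ZMod 2) = 0 := by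
    rw [sum_congr rfl fun i hi => sum_congr rfl fun j hj => h1 i hi j hj]
    simp only [sum_add_distrib]
    have A : ∀ i ∈ range s, ∑ j ∈ range t, α i j = 0 := fun i _ =>
      tele_closed (fun j => bt (sd f g h (P (a i)) (P (a (i + 1))) (P (b j)))) t
        (by simp only [hbt])
    have B : ∑ i ∈ range s, ∑ j ∈ range t, β i j = 0 := by
      rw [sum_comm]
      exact sum_eq_zero fun j _ =>
        tele_closed (fun i => bt (sd f g h (P (b j)) (P (b (j + 1))) (P (a i)))) s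
          (by simp only [has])
    have C : ∑ i ∈ range s, ∑ j ∈ range t, α i j * β i j = 0 := by
      rw [sum_comm]
      have : ∀ j ∈ range t, ∑ i ∈ range s, α i j * β i j =
          ∑ i ∈ range s, bt (ind f g h (P z) (P (a i)) (P (a (i + 1))) (P (b j))) +
          ∑ i ∈ range s, bt (ind f g h (P z) (P (a i)) (P (a (i + 1))) (P (b (j + 1)))) := by
        intro j hj
        rw [mem_range] at hj
        rw [← walk_seg f g h P gp a has z (b j) (b (j + 1)) hza ha (hzb _) (hzb _) (hb j hj)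
          (fun i => hab i _) (fun i => hab i _)]
        refine sum_congr rfl fun i _ => ?_
        rw [cr, bt_and, bt_bne, bt_bne]
      rw [sum_congr rfl this]
      exact tele_closed (fun j => ∑ i ∈ range s,
        bt (ind f g h (P z) (P (a i)) (P (a (i + 1))) (P (b j)))) t (by simp only [hbt])
    rw [sum_eq_zero A, B, C]
    ring
  rw [sum_const, sum_const, card_range, card_range, smul_smul, nsmul_eq_mul, mul_one] at h2
  have h3 : Odd (s * t) := hs.mul ht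
  rw [ZMod.natCast_eq_zero_iff] at h2
  exact (Nat.not_even_iff_odd.2 h3) (even_iff_two_dvd.2 h2)

end walks

/-- The metric hypotheses: `d` is symmetric, satisfies the triangle inequality and is additive
along the arcs `p • x + q • y`. -/
structure Arcs (Ω : Set W) (d : W → W → ℝ) : Prop where
  symm : ∀ x ∈ Ω, ∀ y ∈ Ω, d x y = d y x
  tri : ∀ x ∈ Ω, ∀ y ∈ Ω, ∀ z ∈ Ω, d x z ≤ d x y + d y z
  mem : ∀ x ∈ Ω, ∀ y ∈ Ω, ∀ p q : ℝ, 0 < p → 0 < q → p • x + q • y ≠ 0 → p • x + q • y ∈ Ω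
  add : ∀ x ∈ Ω, ∀ y ∈ Ω, ∀ p q : ℝ, 0 < p → 0 < q → p • x + q • y ≠ 0 →
    d x (p • x + q • y) + d (p • x + q • y) y ≤ d x y

theorem quad_aux {Ω : Set W} {d : W → W → ℝ} (hd : Arcs Ω d) {x₁ x₂ y₁ y₂ : W} (h1 : x₁ ∈ Ω)
    (h2 : x₂ ∈ Ω) (h3 : y₁ ∈ Ω) (h4 : y₂ ∈ Ω) (a b c e : ℝ) (ha : 0 < a) (hb : 0 < b)
    (hc : 0 < c) (he : 0 < e) (h : a • x₁ + b • y₁ = c • x₂ + e • y₂) (h0 : a • x₁ + b • y₁ ≠ 0) :
    d x₁ x₂ + d y₁ y₂ ≤ d x₁ y₁ + d x₂ y₂ := by
  have m1 := hd.mem x₁ h1 y₁ h3 a b ha hb h0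
  have e1 := hd.add x₁ h1 y₁ h3 a b ha hb h0
  have e2 := hd.add x₂ h2 y₂ h4 c e hc he (h ▸ h0)
  rw [← h] at e2
  have t1 := hd.tri x₁ h1 _ m1 x₂ h2
  have t2 := hd.tri y₁ h3 _ m1 y₂ h4
  rw [hd.symm _ m1 x₂ h2] at t1
  rw [hd.symm y₁ h3 _ m1] at t2
  linarith

theorem dt_ne (f g h : W →ₗ[ℝ] ℝ) {x y z : W} {a b : ℝ} (ha : 0 < a)
    (hz : dt f g h y z x ≠ 0) : a • x + b • y ≠ 0 := by
  intro h0
  apply hz
  have e : a * dt f g h y z x = dt f g h y z (a • x + b • y) := by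
    simp only [dt, map_add, map_smul, smul_eq_mul]; ring
  rw [h0] at e
  have e0 : dt f g h y z 0 = 0 := by simp only [dt, map_zero]; ring
  rw [e0] at e
  exact (mul_eq_zero.1 e).resolve_left ha.ne'

/-- If neither of the great circles `x₁ x₂`, `y₁ y₂` separates the other pair of vectors, then
`d x₁ x₂ + d y₁ y₂` is at most one of the two cross sums. -/
theorem quad (f g h : W →ₗ[ℝ] ℝ) (hfg : ∀ x, f x = 0 → g x = 0 → h x = 0 → x = 0) {Ω : Set W}
    {d : W → W → ℝ} (hd : Arcs Ω d) {x₁ x₂ y₁ y₂ : W} (m1 : x₁ ∈ Ω)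
    (m2 : x₂ ∈ Ω) (m3 : y₁ ∈ Ω) (m4 : y₂ ∈ Ω)
    (h1 : dt f g h x₁ x₂ y₁ ≠ 0) (h2 : dt f g h x₁ x₂ y₂ ≠ 0) (h3 : dt f g h y₁ y₂ x₁ ≠ 0)
    (h4 : dt f g h y₁ y₂ x₂ ≠ 0) (hab : sd f g h x₁ x₂ y₁ = sd f g h x₁ x₂ y₂)
    (hcd : sd f g h y₁ y₂ x₁ = sd f g h y₁ y₂ x₂) :
    d x₁ x₂ + d y₁ y₂ ≤ d x₁ y₁ + d x₂ y₂ ∨ d x₁ x₂ + d y₁ y₂ ≤ d x₁ y₂ + d x₂ y₁ := by
  have rel : dt f g h y₁ y₂ x₂ • x₁ - dt f g h y₁ y₂ x₁ • x₂ + dt f g h x₁ x₂ y₂ • y₁ -
      dt f g h x₁ x₂ y₁ • y₂ = 0 := by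
    apply hfg <;>
    · simp only [map_sub, map_add, map_smul, smul_eq_mul, dt]; ring
  have same : ∀ {x y : ℝ}, x ≠ 0 → y ≠ 0 → pos x = pos y → (0 < x ∧ 0 < y) ∨ (x < 0 ∧ y < 0) := by
    intro x y hx hy h
    rcases lt_or_gt_of_ne hx with h' | h' <;> rcases lt_or_gt_of_ne hy with h'' | h''
    · exact Or.inr ⟨h', h''⟩
    · rw [(pos_false hx).2 h', (pos_iff y).2 h''] at h; exact absurd h (by simp)
    · rw [(pos_iff x).2 h', (pos_false hy).2 h''] at h; exact absurd h (by simp)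
    · exact Or.inl ⟨h', h''⟩
  have h3' : dt f g h y₂ y₁ x₁ ≠ 0 := by rw [dt_swap]; exact neg_ne_zero.2 h3
  rcases same h1 h2 hab with ⟨a1, a2⟩ | ⟨a1, a2⟩ <;> rcases same h3 h4 hcd with ⟨b1, b2⟩ | ⟨b1, b2⟩
  · left
    refine quad_aux hd m1 m2 m3 m4 (dt f g h y₁ y₂ x₂) (dt f g h x₁ x₂ y₂) (dt f g h y₁ y₂ x₁)
      (dt f g h x₁ x₂ y₁) b2 a2 b1 a1 ?_ (dt_ne f g h b2 h3)
    rw [← sub_eq_zero, ← rel]; abel
  · right
    refine quad_aux hd m1 m2 m4 m3 (-dt f g h y₁ y₂ x₂) (dt f g h x₁ x₂ y₁) (-dt f g h y₁ y₂ x₁)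
      (dt f g h x₁ x₂ y₂) (by linarith) a1 (by linarith) a2 ?_ (dt_ne f g h (by linarith) h3') |>.trans'
        (le_of_eq ?_)
    · rw [← sub_eq_zero, ← neg_eq_zero, ← rel]; module
    · rw [hd.symm y₂ m4 y₁ m3]
  · right
    refine quad_aux hd m1 m2 m4 m3 (dt f g h y₁ y₂ x₂) (-dt f g h x₁ x₂ y₁) (dt f g h y₁ y₂ x₁)
      (-dt f g h x₁ x₂ y₂) b2 (by linarith) b1 (by linarith) ?_ (dt_ne f g h b2 h3') |>.trans'
        (le_of_eq ?_)
    · rw [← sub_eq_zero, ← rel]; module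
    · rw [hd.symm y₂ m4 y₁ m3]
  · left
    refine quad_aux hd m1 m2 m3 m4 (-dt f g h y₁ y₂ x₂) (-dt f g h x₁ x₂ y₂) (-dt f g h y₁ y₂ x₁)
      (-dt f g h x₁ x₂ y₁) (by linarith) (by linarith) (by linarith) (by linarith) ?_
      (dt_ne f g h (by linarith) h3)
    rw [← sub_eq_zero, ← neg_eq_zero, ← rel]; module

end Vale.Agent.P305.R2.H791
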